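import Vale.Agent.P252.Defs
import Vale.Agent.P252.Main

open Matrix Set
open scoped ContDiff

namespace Vale.Agent.Results.P252.Counter

open Vale.Agent.P252

theorem result (n : ℕ) (hn : 10 ≤ n) :
    ∃ u : (Fin n → ℝ) → ℝ, ContDiff ℝ ∞ u ∧
      (∀ x, (hess u x).PosDef) ∧
      (∀ x, ∑ i, ∑ j, (hess u x).det * (hess u x)⁻¹ i j *
        hess (fun x' => (hess u x').det ^ (-((n : ℝ) + 1) / ((n : ℝ) + 2))) x i j = 0) ∧
      ¬ ∃ (A : Matrix (Fin n) (Fin n) ℝ) (b : Fin n → ℝ) (c : ℝ),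
        ∀ x, u x = 1 / 2 * (∑ i, ∑ j, A i j * x i * x j) + (∑ i, b i * x i) + c := by
  obtain ⟨δ, hδ, a, v, hsm, h⟩ := ode_package n hn
  obtain ⟨m, rfl⟩ : ∃ m, n = m + 1 := ⟨n - 1, by omega⟩
  obtain ⟨k, hk⟩ : ∃ k, m + 1 = k + 2 := ⟨m - 1, by omega⟩
  have h' : ∀ ρ, ∃ y : ℝ, 0 ≤ ρ → v ρ = 1 + ρ * y ∧ HasDerivAt a (a ρ * (y / 2 - a ρ)) ρ ∧
      HasDerivAt v (v ρ / 2 * (-(((m + 1 : ℕ) : ℝ) - 1) * y + 2 * a ρ +
        2 * (((m + 1 : ℕ) : ℝ) + 2) * a ρ * (v ρ - 1 / 2) /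
          ((((m + 1 : ℕ) : ℝ) - 1) / 2 + 2 * ρ * a ρ))) ρ := by
    intro ρ
    by_cases hρ : 0 ≤ ρ
    · obtain ⟨y, hy⟩ := (h ρ hρ).2.2
      exact ⟨y, fun _ => hy⟩
    · exact ⟨0, fun h => absurd h hρ⟩
  choose y hy using h'
  set S : ℝ → ℝ := fun x => ∫ τ in (0 : ℝ)..x, a τ with hS
  have dS : ∀ ρ ∈ Ioi (-δ), HasDerivAt S (a ρ) ρ := fun ρ hρ =>
    hasDerivAt_int isOpen_Ioi ordConnected_Ioi hsm.continuousOn (by simpa using hδ) hρ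
  have hSs : ContDiffOn ℝ ∞ S (Ioi (-δ)) := by
    rw [contDiffOn_infty_iff_deriv_of_isOpen isOpen_Ioi]
    exact ⟨fun ρ hρ => (dS ρ hρ).differentiableAt.differentiableWithinAt,
      hsm.congr fun ρ hρ => (dS ρ hρ).deriv⟩
  have hm : ∀ ρ : ℝ, 0 ≤ ρ → ρ ∈ Ioi (-δ) := fun ρ hρ => by
    simp only [mem_Ioi]; linarith
  obtain ⟨h1, h2⟩ := main_calc m k hk _ _ rfl rfl a v y S (fun ρ hρ => (h ρ hρ).1)
    (fun ρ hρ => (h ρ hρ).2.1) (fun ρ hρ => (hy ρ hρ).1) (fun ρ hρ => (hy ρ hρ).2.1)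
    (fun ρ hρ => (hy ρ hρ).2.2) (fun ρ hρ => dS ρ (hm ρ hρ)) _ rfl
  refine ⟨_, ?_, h1, h2, ?_⟩
  · have h3 : ContDiff ℝ ∞ (fun x : Fin (m + 1) → ℝ => S (rho x)) :=
      hSs.comp_contDiff contDiff_rho fun x => hm _ (rho_nonneg x)
    have h4 : ContDiff ℝ ∞ (fun x : Fin (m + 1) → ℝ => x 0 * x 0) := by fun_prop
    refine ContDiff.sqrt (((contDiff_const.mul h3).exp).add h4) fun x => ?_
    exact (add_pos_of_pos_of_nonneg (Real.exp_pos _) (mul_self_nonneg _)).ne'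
  · rintro ⟨A, b, c, hq⟩
    have key : ∀ t : ℝ, √(1 + t * t) = 1 / 2 * (t * t * A 0 0) + b 0 * t + c := by
      intro t
      have := hq (Pi.single 0 t)
      have hr : rho (Pi.single (0 : Fin (m + 1)) t) = 0 := by
        have : xh (Pi.single (0 : Fin (m + 1)) t) = 0 := by
          ext i
          simp [xh, e0, Pi.single_apply]
        simp [rho, this]
      simp only [hr, hS] at this
      simpa [Pi.single_apply, mul_assoc, mul_comm t (A 0 0), mul_left_comm t (A 0 0),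
        mul_comm (t * t) (A 0 0)] using this
    have k0 := key 0
    have k1 := key (3 / 4)
    have k2 := key (-(3 / 4))
    have k3 := key (4 / 3)
    rw [show (1 : ℝ) + 0 * 0 = 1 ^ 2 by norm_num, Real.sqrt_sq (by norm_num)] at k0
    rw [show (1 : ℝ) + 3 / 4 * (3 / 4) = (5 / 4) ^ 2 by norm_num, Real.sqrt_sq (by norm_num)] at k1
    rw [show (1 : ℝ) + -(3 / 4) * -(3 / 4) = (5 / 4) ^ 2 by norm_num,
      Real.sqrt_sq (by norm_num)] at k2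
    rw [show (1 : ℝ) + 4 / 3 * (4 / 3) = (5 / 3) ^ 2 by norm_num, Real.sqrt_sq (by norm_num)] at k3
    linarith

end Vale.Agent.Results.P252.Counter
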